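import Vale.Agent.P065.Main

namespace Vale.Agent.Results.P065.PowerSaving

open Vale.Agent.P065

theorem result : ∃ ε : ℝ, 0 < ε ∧ ∃ C : ℝ,
    (∀ P : Finset (ℝ × ℝ), NoThreeCollinear P → Even P.card →
      (halvingCount P : ℝ) ≤ C * (P.card : ℝ) ^ (4 / 3 - ε)) ∧
    (∀ (P : Finset (ℝ × ℝ)) (k : ℕ), NoThreeCollinear P → 1 ≤ k → 2 * k ≤ P.card →
      (kSetCount P k : ℝ) ≤ C * P.card * (k : ℝ) ^ (1 / 3 - ε)) :=
  main

end Vale.Agent.Results.P065.PowerSaving
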